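import Vale.Agent.P043.T2.Defs

/-! # P043, FIN (helper171): digits, block families, the matching lemma -/

set_option linter.all false

namespace Vale.Agent.P043.T2.H171

section dig

variable {q N : ℕ} [NeZero q] [NeZero N]

/-- lower digit -/
def lo (h : N = q * q) : ZMod N →+* ZMod q := ZMod.castHom (Dvd.intro q h.symm) (ZMod q)

/-- higher digit -/
def hi (h : N = q * q) (x : ZMod N) : Fin q :=
  ⟨x.val / q, Nat.div_lt_of_lt_mul (lt_of_lt_of_eq x.val_lt h)⟩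

/-- number with given digits -/
def mk (h : N = q * q) (a : ZMod q) (s : Fin q) : ZMod N := ((a.val + q * s.val : ℕ) : ZMod N)

theorem lo_val (h : N = q * q) (x : ZMod N) : (lo h x).val = x.val % q := by
  unfold lo
  rw [ZMod.castHom_apply, ← ZMod.natCast_val, ZMod.val_natCast]

theorem dig_ext (h : N = q * q) {x y : ZMod N} (h1 : lo h x = lo h y) (h2 : hi h x = hi h y) :
    x = y := by
  apply ZMod.val_injective
  have a1 : x.val % q = y.val % q := by rw [← lo_val h, ← lo_val h, h1]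
  have a2 : x.val / q = y.val / q := congrArg Fin.val h2
  rw [← Nat.div_add_mod x.val q, ← Nat.div_add_mod y.val q, a1, a2]

theorem mk_val (h : N = q * q) (a : ZMod q) (s : Fin q) : (mk h a s).val = a.val + q * s.val := by
  unfold mk
  rw [ZMod.val_natCast]
  apply Nat.mod_eq_of_lt
  have h1 := a.val_lt
  have h2 := s.isLt
  rw [h]
  calc a.val + q * s.val < q + q * s.val := by omega
    _ = q * (s.val + 1) := by ring
    _ ≤ q * q := Nat.mul_le_mul_left q h2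

@[simp] theorem lo_mk (h : N = q * q) (a : ZMod q) (s : Fin q) : lo h (mk h a s) = a := by
  apply ZMod.val_injective
  rw [lo_val, mk_val, Nat.add_mul_mod_self_left, Nat.mod_eq_of_lt a.val_lt]

@[simp] theorem hi_mk (h : N = q * q) (a : ZMod q) (s : Fin q) : hi h (mk h a s) = s := by
  apply Fin.ext
  show (mk h a s).val / q = s.val
  rw [mk_val, Nat.add_mul_div_left _ _ (Nat.pos_of_ne_zero (NeZero.ne q)),
    Nat.div_eq_of_lt a.val_lt, zero_add]

/-- `x - c` has a given lower digit for exactly one `c`. -/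
theorem exu_lo (h : N = q * q) (x : ZMod N) (a : ZMod q) :
    ∃! c : Fin q, lo h (x - ((c : ℕ) : ZMod N)) = a := by
  refine ⟨⟨(lo h x - a).val, ZMod.val_lt _⟩, ?_, ?_⟩
  · show lo h (x - (((lo h x - a).val : ℕ) : ZMod N)) = a
    rw [map_sub, map_natCast, ZMod.natCast_zmod_val]
    ring
  · intro c hc
    apply Fin.ext
    simp only [map_sub, map_natCast] at hc
    have : ((c : ℕ) : ZMod q) = lo h x - a := by rw [← hc]; ring
    show (c : ℕ) = (lo h x - a).val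
    rw [← this, ZMod.val_natCast, Nat.mod_eq_of_lt c.isLt]

/-- elements with the same lower digit differ by exactly one multiple of `q` -/
theorem exu_q (h : N = q * q) (x y : ZMod N) (hxy : lo h y = lo h x) :
    ∃! c : Fin q, x - ((q * (c : ℕ) : ℕ) : ZMod N) = y := by
  have h0 : lo h (x - y) = 0 := by rw [map_sub, hxy, sub_self]
  have h1 : (x - y).val % q = 0 := by rw [← lo_val h, h0, ZMod.val_zero]
  have h2 : q * ((x - y).val / q) = (x - y).val := by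
    have := Nat.div_add_mod (x - y).val q
    omega
  refine ⟨hi h (x - y), ?_, ?_⟩
  · show x - ((q * ((x - y).val / q) : ℕ) : ZMod N) = y
    rw [h2, ZMod.natCast_val, ZMod.cast_id', id_eq]
    ring
  · intro c hc
    apply Fin.ext
    show (c : ℕ) = (x - y).val / q
    have h3 : x - y = ((q * (c : ℕ) : ℕ) : ZMod N) := by rw [← hc]; ring
    have h4 : q * (c : ℕ) < N := by
      rw [h]
      exact Nat.mul_lt_mul_of_pos_left c.isLt (Nat.pos_of_ne_zero (NeZero.ne q))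
    rw [h3, ZMod.val_natCast, Nat.mod_eq_of_lt h4,
      Nat.mul_div_cancel_left _ (Nat.pos_of_ne_zero (NeZero.ne q))]

theorem lo_sub_q (h : N = q * q) (x : ZMod N) (c : ℕ) : lo h (x - ((q * c : ℕ) : ZMod N)) = lo h x := by
  rw [map_sub, map_natCast]
  simp

end dig

section fam

variable {q1 q2 N1 N2 : ℕ} [NeZero q1] [NeZero q2] [NeZero N1] [NeZero N2]

/-- block family -/
def Rf (e1 : N1 = q1 * q1) (e2 : N2 = q2 * q2) (α : Fin q2 → ZMod q1)
    (β : Fin q2 → Fin q1 → ZMod q2) (h : ZMod N2) : Set (ZMod N1 × ZMod N2) :=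
  {p | lo e1 p.1 = α (hi e2 (h - p.2)) ∧ lo e2 p.2 = β (hi e2 (h - p.2)) (hi e1 p.1)}

theorem Rf_tile (e1 : N1 = q1 * q1) (e2 : N2 = q2 * q2) (α : Fin q2 → ZMod q1)
    (β : Fin q2 → Fin q1 → ZMod q2) (h : ZMod N2) (p : ZMod N1 × ZMod N2) :
    ∃! c : Fin q1 × Fin q2, (p.1 - ((c.1 : ℕ) : ZMod N1), p.2 - ((c.2 : ℕ) : ZMod N2)) ∈
      Rf e1 e2 α β (h - ((c.2 : ℕ) : ZMod N2)) := by
  have key : ∀ c : Fin q1 × Fin q2,
      (p.1 - ((c.1 : ℕ) : ZMod N1), p.2 - ((c.2 : ℕ) : ZMod N2)) ∈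
        Rf e1 e2 α β (h - ((c.2 : ℕ) : ZMod N2)) ↔
      lo e1 (p.1 - ((c.1 : ℕ) : ZMod N1)) = α (hi e2 (h - p.2)) ∧
        lo e2 (p.2 - ((c.2 : ℕ) : ZMod N2)) =
          β (hi e2 (h - p.2)) (hi e1 (p.1 - ((c.1 : ℕ) : ZMod N1))) := by
    intro c
    show (_ ∧ _) ↔ _
    have : h - ((c.2 : ℕ) : ZMod N2) - (p.2 - ((c.2 : ℕ) : ZMod N2)) = h - p.2 := by ring
    dsimp only
    rw [this]
  obtain ⟨c, hc, hcu⟩ := exu_lo e1 p.1 (α (hi e2 (h - p.2)))
  obtain ⟨d, hd, hdu⟩ := exu_lo e2 p.2 (β (hi e2 (h - p.2)) (hi e1 (p.1 - ((c : ℕ) : ZMod N1))))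
  refine ⟨(c, d), (key _).2 ⟨hc, hd⟩, ?_⟩
  rintro ⟨c', d'⟩ h'
  have h2 := (key _).1 h'
  have e : c' = c := hcu _ h2.1
  subst e
  have e' : d' = d := hdu _ h2.2
  rw [e']

/-- the part of a block family with given lower digits does not depend on `h` -/
def Rf_equiv (e1 : N1 = q1 * q1) (e2 : N2 = q2 * q2) (α : Fin q2 → ZMod q1)
    (β : Fin q2 → Fin q1 → ZMod q2) (h : ZMod N2) (c : ZMod q1 × ZMod q2) :
    {p : ZMod N1 × ZMod N2 // (lo e1 p.1, lo e2 p.2) = c ∧ p ∈ Rf e1 e2 α β h} ≃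
      {f : Fin q2 × Fin q1 // (α f.1, β f.1 f.2) = c} where
  toFun p := ⟨(hi e2 (h - p.1.2), hi e1 p.1.1), by
    have h1 := p.2.1
    have h2 := p.2.2
    exact (Prod.ext h2.1.symm h2.2.symm : (_, _) = (_, _)).trans h1⟩
  invFun f := ⟨(mk e1 c.1 f.1.2, h - mk e2 (lo e2 h - c.2) f.1.1), by
    have h1 : h - (h - mk e2 (lo e2 h - c.2) f.1.1) = mk e2 (lo e2 h - c.2) f.1.1 := by ring
    have h2 := f.2
    have h3 : α f.1.1 = c.1 := congrArg Prod.fst h2
    have h4 : β f.1.1 f.1.2 = c.2 := congrArg Prod.snd h2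
    have h5 : lo e2 (h - mk e2 (lo e2 h - c.2) f.1.1) = c.2 := by
      rw [map_sub, lo_mk]; ring
    refine ⟨Prod.ext (lo_mk _ _ _) h5, ?_, ?_⟩
    · dsimp only
      rw [h1, lo_mk, hi_mk, h3]
    · dsimp only
      rw [h1, h5, hi_mk, hi_mk, h4]⟩
  left_inv p := by
    have h1 := p.2.1
    have h3 : lo e1 p.1.1 = c.1 := congrArg Prod.fst h1
    have h4 : lo e2 p.1.2 = c.2 := congrArg Prod.snd h1
    apply Subtype.ext
    apply Prod.ext
    · apply dig_ext e1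
      · dsimp only
        rw [lo_mk, h3]
      · dsimp only
        rw [hi_mk]
    · dsimp only
      have : mk e2 (lo e2 h - c.2) (hi e2 (h - p.1.2)) = h - p.1.2 := by
        apply dig_ext e2
        · rw [lo_mk, map_sub, h4]
        · rw [hi_mk]
      rw [this]
      ring
  right_inv f := by
    apply Subtype.ext
    have h1 : h - (h - mk e2 (lo e2 h - c.2) f.1.1) = mk e2 (lo e2 h - c.2) f.1.1 := by ring
    apply Prod.ext
    · dsimp only
      rw [h1, hi_mk]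
    · dsimp only
      rw [hi_mk]

end fam

theorem matching {H1 H2 P Q C L : Type} (cell : P → C) (layer : Q → L) (D : H1 → L → Set P)
    (B : H2 → C → Set Q)
    (h : ∀ h1 h2 c l, Nonempty ({p // cell p = c ∧ p ∈ D h1 l} ≃ {q // layer q = l ∧ q ∈ B h2 c})) :
    ∃ M : H1 → H2 → P → Q → Prop,
      (∀ h1 h2 p q, M h1 h2 p q → p ∈ D h1 (layer q) ∧ q ∈ B h2 (cell p)) ∧
      (∀ h1 h2 p l, p ∈ D h1 l → ∃! q, layer q = l ∧ M h1 h2 p q) ∧
      (∀ h1 h2 q c, q ∈ B h2 c → ∃! p, cell p = c ∧ M h1 h2 p q) := by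
  let e := fun h1 h2 c l => Classical.choice (h h1 h2 c l)
  refine ⟨fun h1 h2 p q => ∃ (c : C) (l : L) (x : {p // cell p = c ∧ p ∈ D h1 l}),
    x.1 = p ∧ (e h1 h2 c l x).1 = q, ?_, ?_, ?_⟩
  · rintro h1 h2 p q ⟨c, l, x, rfl, rfl⟩
    have a := x.2
    have b := (e h1 h2 c l x).2
    rw [a.1, b.1]
    exact ⟨a.2, b.2⟩
  · intro h1 h2 p l hp
    refine ⟨(e h1 h2 (cell p) l ⟨p, rfl, hp⟩).1, ⟨(e h1 h2 (cell p) l ⟨p, rfl, hp⟩).2.1,
      cell p, l, ⟨p, rfl, hp⟩, rfl, rfl⟩, ?_⟩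
    rintro q ⟨hq, c, l', x, hx, rfl⟩
    obtain rfl : l' = l := by rw [← hq, (e h1 h2 c l' x).2.1]
    obtain rfl : c = cell p := by rw [← hx, x.2.1]
    have : x = ⟨p, rfl, hp⟩ := Subtype.ext hx
    rw [this]
  · intro h1 h2 q c hq
    have hqq : ∃ y : {q' // layer q' = layer q ∧ q' ∈ B h2 c}, y.1 = q := ⟨⟨q, rfl, hq⟩, rfl⟩
    obtain ⟨y, hy⟩ := hqq
    refine ⟨((e h1 h2 c (layer q)).symm y).1, ⟨((e h1 h2 c (layer q)).symm y).2.1,
      c, layer q, (e h1 h2 c (layer q)).symm y, rfl, by rw [Equiv.apply_symm_apply, hy]⟩, ?_⟩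
    rintro p ⟨hp, c', l', x, rfl, hx⟩
    obtain rfl : c' = c := by rw [← hp, x.2.1]
    obtain rfl : l' = layer q := by rw [← hx, (e h1 h2 c' l' x).2.1]
    have : e h1 h2 c' (layer q) x = y := Subtype.ext (by rw [hx, hy])
    rw [← this, Equiv.symm_apply_apply]

theorem asm {U V P Q C H2 : Type} (M : H2 → P → Q → Prop) (cell : P → C) (B : H2 → C → Set Q)
    (σ : U → P → P) (τ : V → Q → Q) (ρ : V → H2 → H2)
    (hM : ∀ h2 p q, M h2 p q → q ∈ B h2 (cell p))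
    (hE : ∀ h2 q c, q ∈ B h2 c → ∃! p, cell p = c ∧ M h2 p q)
    (hσ1 : ∀ u p, cell (σ u p) = cell p)
    (hσ2 : ∀ p p', cell p' = cell p → ∃! u, σ u p = p')
    (h2 : H2) (p : P) (q : Q) (hB : ∃! v, τ v q ∈ B (ρ v h2) (cell p)) :
    ∃! uv : U × V, M (ρ uv.2 h2) (σ uv.1 p) (τ uv.2 q) := by
  obtain ⟨v, hv, hvu⟩ := hB
  obtain ⟨p', ⟨hp', hp2⟩, hpu⟩ := hE _ _ _ hv
  obtain ⟨u, hu, huu⟩ := hσ2 p p' hp'
  refine ⟨(u, v), ?_, ?_⟩
  · dsimp only
    rw [hu]; exact hp2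
  · rintro ⟨u', v'⟩ h'
    dsimp only at h'
    have h3 := hM _ _ _ h'
    rw [hσ1] at h3
    obtain rfl : v' = v := hvu _ h3
    have h4 : σ u' p = p' := hpu _ ⟨hσ1 _ _, h'⟩
    rw [huu _ h4]

end Vale.Agent.P043.T2.H171
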