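import Vale.Agent.P043.T2.H171.Dig

/-! # P043, FIN (helper171): the explicit families and the proof of `StFin` -/

set_option linter.all false

namespace Vale.Agent.P043.T2.H171

abbrev PP : Type := ZMod 4 × ZMod 9
abbrev QQ : Type := ZMod 25 × ZMod 49
abbrev CC : Type := ZMod 2 × ZMod 3
abbrev LL : Type := ZMod 5 × ZMod 7

theorem h4 : (4 : ℕ) = 2 * 2 := rfl
theorem h9 : (9 : ℕ) = 3 * 3 := rfl
theorem h25 : (25 : ℕ) = 5 * 5 := rfl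
theorem h49 : (49 : ℕ) = 7 * 7 := rfl

def cellP (p : PP) : CC := (lo h4 p.1, lo h9 p.2)
def layQ (p : QQ) : LL := (lo h25 p.1, lo h49 p.2)

inductive Kind
  | Q (a : Bool) (n : ℕ)
  | P
  | V0
  | V1

open Kind in
def tabF : Fin 7 → Fin 5 → Kind :=
  ![![Q true 1, P, V0, Q true 6, V1],
    ![V0, P, Q true 1, Q true 2, V1],
    ![V1, Q false 0, V0, P, Q true 5],
    ![V0, P, V1, Q true 3, Q true 2],
    ![Q false 2, Q false 2, Q false 0, Q true 0, Q false 1],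
    ![Q false 0, V1, Q false 4, P, V0],
    ![Q false 6, Q false 6, Q false 4, Q true 4, Q true 1]]

def tab (l : LL) : Kind := tabF (l.2 : Fin 7) (l.1 : Fin 5)

/-- class 1 cells -/
def cls (c : CC) : Bool := decide (c = (0, 0) ∨ c = (1, 1))

def aQ (a : Bool) : Fin 3 → ZMod 2 := fun _ => if a then 1 else 0
def bQ (a : Bool) (n : ℕ) : Fin 3 → Fin 2 → ZMod 3 :=
  fun f s => if 2 * f.val + s.val < n then (if a then 0 else 1) else 2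
def aP : Fin 2 → ZMod 3 := fun f => if f = 0 then 0 else 1
def bP : Fin 2 → Fin 3 → ZMod 2 := fun f _ => if f = 0 then 0 else 1

def D0 : Kind → ZMod 9 → Set PP
  | Kind.Q a n, h => Rf h4 h9 (aQ a) (bQ a n) h
  | Kind.P, _ => ∅
  | Kind.V0, _ => {p | p = (1, 0) ∨ p = (3, 0)}
  | Kind.V1, _ => {p | p = (0, 1) ∨ p = (2, 1)}

def D1 : Kind → ZMod 4 → Set PP
  | Kind.Q _ _, _ => ∅
  | Kind.P, h => {p | p.swap ∈ Rf h9 h4 aP bP h}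
  | Kind.V0, _ => {p | p = (0, 3) ∨ p = (2, 3) ∨ p = (0, 6) ∨ p = (2, 6)}
  | Kind.V1, _ => {p | p = (1, 4) ∨ p = (3, 4) ∨ p = (1, 7) ∨ p = (3, 7)}

def X2 : Kind → ZMod 9 → Prop
  | Kind.Q _ _, _ => True
  | Kind.P, _ => False
  | Kind.V0, j => j.val ≤ 2
  | Kind.V1, j => 1 ≤ j.val ∧ j.val ≤ 3

def al0 (c : CC) : Fin 7 → ZMod 5 :=
  if c = (0, 1) ∨ c = (0, 2) then ![0, 0, 1, 1, 2, 2, 4] else ![0, 2, 3, 3, 3, 4, 4]

def be0 (c : CC) : Fin 7 → Fin 5 → ZMod 7 :=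
  if c = (0, 1) then
    ![![2,2,4,4,6],![6,6,6,6,6],![4,4,5,5,6],![6,6,6,6,6],![3,3,5,5,5],![5,6,6,6,6],![0,0,1,1,4]]
  else if c = (0, 2) then
    ![![4,4,4,4,5],![5,5,5,5,5],![2,2,2,2,2],![2,4,4,4,4],![4,4,4,4,4],![4,5,5,6,6],![4,4,4,4,4]]
  else if c = (1, 0) then
    ![![0,1,1,3,3],![0,0,1,2,2],![0,0,0,0,0],![0,1,1,3,3],![3,6,6,6,6],![2,2,2,2,2],![3,3,5,5,6]]
  else
    ![![0,0,0,0,0],![1,1,1,1,1],![1,1,1,1,3],![3,3,4,4,4],![4,4,4,6,6],![2,3,3,3,3],![6,6,6,6,6]]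

def al1 : Fin 5 → ZMod 7 := ![0, 1, 2, 3, 5]

def be1 (c : CC) : Fin 5 → Fin 7 → ZMod 5 :=
  if c = (0, 0) then
    ![![1,1,1,2,2,2,2],![0,0,0,0,1,1,1],![2,2,2,2,3,3,3],![0,0,0,0,1,1,1],![3,3,3,4,4,4,4]]
  else
    ![![1,1,1,4,4,4,4],![1,1,1,4,4,4,4],![0,0,0,0,3,3,3],![1,1,1,2,2,2,2],![1,1,1,1,3,3,3]]

def B0 (h : ZMod 49) (c : CC) : Set QQ :=
  {q | cls c = false ∧ q ∈ Rf h25 h49 (al0 c) (be0 c) h}

def B1 (h : ZMod 25) (c : CC) : Set QQ :=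
  {q | cls c = true ∧ q.swap ∈ Rf h49 h25 al1 (be1 c) h}

/-! ### cardinalities -/

def nD0 : Kind → CC → ℕ
  | Kind.Q a n, c => Fintype.card {f : Fin 3 × Fin 2 // (aQ a f.1, bQ a n f.1 f.2) = c}
  | Kind.P, _ => 0
  | Kind.V0, c => if c = (1, 0) then 2 else 0
  | Kind.V1, c => if c = (0, 1) then 2 else 0

def nB0 (c : CC) (l : LL) : ℕ :=
  if cls c = false then Fintype.card {f : Fin 7 × Fin 5 // (al0 c f.1, be0 c f.1 f.2) = l} else 0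

def nD1 : Kind → CC → ℕ
  | Kind.Q _ _, _ => 0
  | Kind.P, c => Fintype.card {f : Fin 2 × Fin 3 // (aP f.1, bP f.1 f.2) = c.swap}
  | Kind.V0, c => if c = (0, 0) then 4 else 0
  | Kind.V1, c => if c = (1, 1) then 4 else 0

def nB1 (c : CC) (l : LL) : ℕ :=
  if cls c = true then Fintype.card {f : Fin 5 × Fin 7 // (al1 f.1, be1 c f.1 f.2) = l.swap} else 0

theorem check0 : ∀ c l, nD0 (tab l) c = nB0 c l := by decide +kernel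
theorem check1 : ∀ c l, nD1 (tab l) c = nB1 c l := by decide +kernel

theorem isEmpty_fin0 {α : Type} (h : α → False) : Nonempty (α ≃ Fin 0) :=
  ⟨{ toFun := fun a => (h a).elim, invFun := fun a => a.elim0, left_inv := fun a => (h a).elim,
     right_inv := fun a => a.elim0 }⟩

theorem cV0 : ∀ c : CC, Fintype.card {p : PP // cellP p = c ∧ (p = (1, 0) ∨ p = (3, 0))} =
    if c = (1, 0) then 2 else 0 := by decide +kernel
theorem cV1 : ∀ c : CC, Fintype.card {p : PP // cellP p = c ∧ (p = (0, 1) ∨ p = (2, 1))} =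
    if c = (0, 1) then 2 else 0 := by decide +kernel
theorem cW0 : ∀ c : CC, Fintype.card {p : PP // cellP p = c ∧
    (p = (0, 3) ∨ p = (2, 3) ∨ p = (0, 6) ∨ p = (2, 6))} = if c = (0, 0) then 4 else 0 := by
  decide +kernel
theorem cW1 : ∀ c : CC, Fintype.card {p : PP // cellP p = c ∧
    (p = (1, 4) ∨ p = (3, 4) ∨ p = (1, 7) ∨ p = (3, 7))} = if c = (1, 1) then 4 else 0 := by
  decide +kernel

theorem eqD0 (k : Kind) (h : ZMod 9) (c : CC) :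
    Nonempty ({p // cellP p = c ∧ p ∈ D0 k h} ≃ Fin (nD0 k c)) := by
  cases k with
  | Q a n => exact ⟨(Rf_equiv h4 h9 (aQ a) (bQ a n) h c).trans (Fintype.equivFin _)⟩
  | P => exact isEmpty_fin0 (fun x => x.2.2)
  | V0 => exact ⟨Fintype.equivFinOfCardEq (α := {p : PP // cellP p = c ∧ (p = (1, 0) ∨ p = (3, 0))}) (cV0 c)⟩
  | V1 => exact ⟨Fintype.equivFinOfCardEq (α := {p : PP // cellP p = c ∧ (p = (0, 1) ∨ p = (2, 1))}) (cV1 c)⟩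

theorem swapEquiv {A B C D : Type} (S : Set (B × A)) (f : A × B → C × D) (g : B × A → D × C)
    (hfg : ∀ p, g p.swap = (f p).swap) (c : C × D) :
    Nonempty ({p : A × B // f p = c ∧ p ∈ {p | p.swap ∈ S}} ≃ {p : B × A // g p = c.swap ∧ p ∈ S}) := by
  refine ⟨(Equiv.prodComm A B).subtypeEquiv ?_⟩
  intro p
  show (f p = c ∧ p.swap ∈ S) ↔ (g p.swap = c.swap ∧ p.swap ∈ S)
  rw [hfg]
  constructor
  · rintro ⟨h1, h2⟩
    exact ⟨by rw [h1], h2⟩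
  · rintro ⟨h1, h2⟩
    exact ⟨Prod.swap_injective h1, h2⟩

theorem eqD1 (k : Kind) (h : ZMod 4) (c : CC) :
    Nonempty ({p // cellP p = c ∧ p ∈ D1 k h} ≃ Fin (nD1 k c)) := by
  cases k with
  | Q a n => exact isEmpty_fin0 (fun x => x.2.2)
  | P =>
    obtain ⟨e⟩ := swapEquiv (Rf h9 h4 aP bP h) cellP (fun p => (lo h9 p.1, lo h4 p.2))
      (fun p => rfl) c
    exact ⟨e.trans ((Rf_equiv h9 h4 aP bP h c.swap).trans (Fintype.equivFin _))⟩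
  | V0 => exact ⟨Fintype.equivFinOfCardEq (α := {p : PP // cellP p = c ∧
      (p = (0, 3) ∨ p = (2, 3) ∨ p = (0, 6) ∨ p = (2, 6))}) (cW0 c)⟩
  | V1 => exact ⟨Fintype.equivFinOfCardEq (α := {p : PP // cellP p = c ∧
      (p = (1, 4) ∨ p = (3, 4) ∨ p = (1, 7) ∨ p = (3, 7))}) (cW1 c)⟩

theorem eqB0 (h : ZMod 49) (c : CC) (l : LL) :
    Nonempty ({q // layQ q = l ∧ q ∈ B0 h c} ≃ Fin (nB0 c l)) := by
  by_cases hc : cls c = false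
  · have e1 : {q // layQ q = l ∧ q ∈ B0 h c} ≃
        {q : QQ // (lo h25 q.1, lo h49 q.2) = l ∧ q ∈ Rf h25 h49 (al0 c) (be0 c) h} :=
      Equiv.subtypeEquivRight fun q => by
        show (layQ q = l ∧ (cls c = false ∧ _)) ↔ _
        rw [hc]
        simp only [true_and]
        rfl
    unfold nB0
    rw [if_pos hc]
    exact ⟨e1.trans ((Rf_equiv h25 h49 (al0 c) (be0 c) h l).trans (Fintype.equivFin _))⟩
  · unfold nB0
    rw [if_neg hc]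
    exact isEmpty_fin0 (fun x => hc x.2.2.1)

theorem eqB1 (h : ZMod 25) (c : CC) (l : LL) :
    Nonempty ({q // layQ q = l ∧ q ∈ B1 h c} ≃ Fin (nB1 c l)) := by
  by_cases hc : cls c = true
  · have e1 : {q // layQ q = l ∧ q ∈ B1 h c} ≃
        {q : QQ // layQ q = l ∧ q ∈ {q : QQ | q.swap ∈ Rf h49 h25 al1 (be1 c) h}} :=
      Equiv.subtypeEquivRight fun q => by
        show (layQ q = l ∧ (cls c = true ∧ _)) ↔ _
        rw [hc]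
        simp only [true_and]
        rfl
    obtain ⟨e2⟩ := swapEquiv (Rf h49 h25 al1 (be1 c) h) layQ (fun p => (lo h49 p.1, lo h25 p.2))
      (fun p => rfl) l
    unfold nB1
    rw [if_pos hc]
    exact ⟨e1.trans (e2.trans ((Rf_equiv h49 h25 al1 (be1 c) h l.swap).trans (Fintype.equivFin _)))⟩
  · unfold nB1
    rw [if_neg hc]
    exact isEmpty_fin0 (fun x => hc x.2.2.1)

theorem eq0 (h1 : ZMod 9) (h2 : ZMod 49) (c : CC) (l : LL) :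
    Nonempty ({p // cellP p = c ∧ p ∈ D0 (tab l) h1} ≃ {q // layQ q = l ∧ q ∈ B0 h2 c}) := by
  obtain ⟨e⟩ := eqD0 (tab l) h1 c
  obtain ⟨f⟩ := eqB0 h2 c l
  exact ⟨(e.trans (finCongr (check0 c l))).trans f.symm⟩

theorem eq1 (h1 : ZMod 4) (h2 : ZMod 25) (c : CC) (l : LL) :
    Nonempty ({p // cellP p = c ∧ p ∈ D1 (tab l) h1} ≃ {q // layQ q = l ∧ q ∈ B1 h2 c}) := by
  obtain ⟨e⟩ := eqD1 (tab l) h1 c
  obtain ⟨f⟩ := eqB1 h2 c l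
  exact ⟨(e.trans (finCongr (check1 c l))).trans f.symm⟩

/-! ### tilings by the `D` families -/

theorem tV0 : ∀ p : PP, p.2.val ≤ 2 → ∃ c : Fin 2 × Fin 3,
    ((p.1 - ((c.1 : ℕ) : ZMod 4), p.2 - ((c.2 : ℕ) : ZMod 9)) = (1, 0) ∨
      (p.1 - ((c.1 : ℕ) : ZMod 4), p.2 - ((c.2 : ℕ) : ZMod 9)) = (3, 0)) ∧
    ∀ c' : Fin 2 × Fin 3, ((p.1 - ((c'.1 : ℕ) : ZMod 4), p.2 - ((c'.2 : ℕ) : ZMod 9)) = (1, 0) ∨
      (p.1 - ((c'.1 : ℕ) : ZMod 4), p.2 - ((c'.2 : ℕ) : ZMod 9)) = (3, 0)) → c' = c := by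
  decide +kernel
theorem nV0 : ∀ p : PP, ¬ p.2.val ≤ 2 → ∀ c : Fin 2 × Fin 3,
    ¬ ((p.1 - ((c.1 : ℕ) : ZMod 4), p.2 - ((c.2 : ℕ) : ZMod 9)) = (1, 0) ∨
      (p.1 - ((c.1 : ℕ) : ZMod 4), p.2 - ((c.2 : ℕ) : ZMod 9)) = (3, 0)) := by decide +kernel
theorem tV1 : ∀ p : PP, (1 ≤ p.2.val ∧ p.2.val ≤ 3) → ∃ c : Fin 2 × Fin 3,
    ((p.1 - ((c.1 : ℕ) : ZMod 4), p.2 - ((c.2 : ℕ) : ZMod 9)) = (0, 1) ∨
      (p.1 - ((c.1 : ℕ) : ZMod 4), p.2 - ((c.2 : ℕ) : ZMod 9)) = (2, 1)) ∧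
    ∀ c' : Fin 2 × Fin 3, ((p.1 - ((c'.1 : ℕ) : ZMod 4), p.2 - ((c'.2 : ℕ) : ZMod 9)) = (0, 1) ∨
      (p.1 - ((c'.1 : ℕ) : ZMod 4), p.2 - ((c'.2 : ℕ) : ZMod 9)) = (2, 1)) → c' = c := by
  decide +kernel
theorem nV1 : ∀ p : PP, ¬ (1 ≤ p.2.val ∧ p.2.val ≤ 3) → ∀ c : Fin 2 × Fin 3,
    ¬ ((p.1 - ((c.1 : ℕ) : ZMod 4), p.2 - ((c.2 : ℕ) : ZMod 9)) = (0, 1) ∨
      (p.1 - ((c.1 : ℕ) : ZMod 4), p.2 - ((c.2 : ℕ) : ZMod 9)) = (2, 1)) := by decide +kernel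

def W0 (p : PP) : Prop := p = (0, 3) ∨ p = (2, 3) ∨ p = (0, 6) ∨ p = (2, 6)
def W1 (p : PP) : Prop := p = (1, 4) ∨ p = (3, 4) ∨ p = (1, 7) ∨ p = (3, 7)
instance : DecidablePred W0 := fun p => by unfold W0; infer_instance
instance : DecidablePred W1 := fun p => by unfold W1; infer_instance

theorem tW0 : ∀ p : PP, ¬ p.2.val ≤ 2 → ∃ c : Fin 2 × Fin 3,
    W0 (p.1 - ((c.1 : ℕ) : ZMod 4), p.2 - ((c.2 : ℕ) : ZMod 9)) ∧
    ∀ c' : Fin 2 × Fin 3, W0 (p.1 - ((c'.1 : ℕ) : ZMod 4), p.2 - ((c'.2 : ℕ) : ZMod 9)) → c' = c := by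
  decide +kernel
theorem nW0 : ∀ p : PP, p.2.val ≤ 2 → ∀ c : Fin 2 × Fin 3,
    ¬ W0 (p.1 - ((c.1 : ℕ) : ZMod 4), p.2 - ((c.2 : ℕ) : ZMod 9)) := by decide +kernel
theorem tW1 : ∀ p : PP, ¬ (1 ≤ p.2.val ∧ p.2.val ≤ 3) → ∃ c : Fin 2 × Fin 3,
    W1 (p.1 - ((c.1 : ℕ) : ZMod 4), p.2 - ((c.2 : ℕ) : ZMod 9)) ∧
    ∀ c' : Fin 2 × Fin 3, W1 (p.1 - ((c'.1 : ℕ) : ZMod 4), p.2 - ((c'.2 : ℕ) : ZMod 9)) → c' = c := by
  decide +kernel
theorem nW1 : ∀ p : PP, (1 ≤ p.2.val ∧ p.2.val ≤ 3) → ∀ c : Fin 2 × Fin 3,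
    ¬ W1 (p.1 - ((c.1 : ℕ) : ZMod 4), p.2 - ((c.2 : ℕ) : ZMod 9)) := by decide +kernel

theorem tile0 (k : Kind) (h : ZMod 9) (p : PP) (hx : X2 k p.2) : ∃! c : Fin 2 × Fin 3,
    (p.1 - ((c.1 : ℕ) : ZMod 4), p.2 - ((c.2 : ℕ) : ZMod 9)) ∈ D0 k (h - ((c.2 : ℕ) : ZMod 9)) := by
  cases k with
  | Q a n => exact Rf_tile h4 h9 (aQ a) (bQ a n) h p
  | P => exact hx.elim
  | V0 => exact tV0 p hx
  | V1 => exact tV1 p hx

theorem none0 (k : Kind) (h : ZMod 9) (p : PP) (hx : ¬ X2 k p.2) (c : Fin 2 × Fin 3) :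
    (p.1 - ((c.1 : ℕ) : ZMod 4), p.2 - ((c.2 : ℕ) : ZMod 9)) ∉ D0 k (h - ((c.2 : ℕ) : ZMod 9)) := by
  cases k with
  | Q a n => exact (hx trivial).elim
  | P => exact fun h => h
  | V0 => exact nV0 p hx c
  | V1 => exact nV1 p hx c

theorem tile1 (k : Kind) (h : ZMod 4) (p : PP) (hx : ¬ X2 k p.2) : ∃! c : Fin 2 × Fin 3,
    (p.1 - ((c.1 : ℕ) : ZMod 4), p.2 - ((c.2 : ℕ) : ZMod 9)) ∈ D1 k (h - ((c.1 : ℕ) : ZMod 4)) := by
  cases k with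
  | Q a n => exact (hx trivial).elim
  | P =>
    obtain ⟨c, hc, hcu⟩ := Rf_tile h9 h4 aP bP h p.swap
    refine ⟨c.swap, hc, ?_⟩
    intro c' hc'
    rw [← hcu c'.swap hc', Prod.swap_swap]
  | V0 => exact tW0 p hx
  | V1 => exact tW1 p hx

theorem none1 (k : Kind) (h : ZMod 4) (p : PP) (hx : X2 k p.2) (c : Fin 2 × Fin 3) :
    (p.1 - ((c.1 : ℕ) : ZMod 4), p.2 - ((c.2 : ℕ) : ZMod 9)) ∉ D1 k (h - ((c.1 : ℕ) : ZMod 4)) := by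
  cases k with
  | Q a n => exact fun h => h
  | P => exact hx.elim
  | V0 => exact nW0 p hx c
  | V1 => exact nW1 p hx c

/-! ### final assembly -/

theorem kap_false : ∀ i : Ix, kap (row false i) = (((2 * (i.1 : ℕ) : ℕ) : ZMod 4),
    ((3 * (i.2.1 : ℕ) : ℕ) : ZMod 9), ((i.2.2.1 : ℕ) : ZMod 25), ((i.2.2.2 : ℕ) : ZMod 49)) := by
  decide +kernel

theorem kap_true : ∀ i : Ix, kap (row true i) = (((i.1 : ℕ) : ZMod 4),
    ((i.2.1 : ℕ) : ZMod 9), ((5 * (i.2.2.1 : ℕ) : ℕ) : ZMod 25), ((7 * (i.2.2.2 : ℕ) : ℕ) : ZMod 49)) := by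
  decide +kernel

theorem exu_false {F : (Fin 2 × Fin 3) × (Fin 5 × Fin 7) → Prop} (h : ∃! x, F x) :
    ∃! i : Ix, F ((i.1, i.2.1), (i.2.2.1, i.2.2.2)) := by
  obtain ⟨⟨⟨a, b⟩, ⟨c, d⟩⟩, h1, h2⟩ := h
  refine ⟨(a, b, c, d), h1, ?_⟩
  rintro ⟨a', b', c', d'⟩ h'
  have := h2 _ h'
  simp only [Prod.mk.injEq] at this ⊢
  tauto

theorem exu_true {F : (Fin 5 × Fin 7) × (Fin 2 × Fin 3) → Prop} (h : ∃! x, F x) :
    ∃! i : Ix, F ((i.2.2.1, i.2.2.2), (i.1, i.2.1)) := by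
  obtain ⟨⟨⟨a, b⟩, ⟨c, d⟩⟩, h1, h2⟩ := h
  refine ⟨(c, d, a, b), h1, ?_⟩
  rintro ⟨a', b', c', d'⟩ h'
  have := h2 _ h'
  simp only [Prod.mk.injEq] at this ⊢
  tauto

/-- shift inside a cell -/
def sgP (u : Fin 2 × Fin 3) (p : PP) : PP :=
  (p.1 - ((2 * (u.1 : ℕ) : ℕ) : ZMod 4), p.2 - ((3 * (u.2 : ℕ) : ℕ) : ZMod 9))
/-- shift inside a layer -/
def sgQ (u : Fin 5 × Fin 7) (p : QQ) : QQ :=
  (p.1 - ((5 * (u.1 : ℕ) : ℕ) : ZMod 25), p.2 - ((7 * (u.2 : ℕ) : ℕ) : ZMod 49))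
def taP (u : Fin 2 × Fin 3) (p : PP) : PP :=
  (p.1 - ((u.1 : ℕ) : ZMod 4), p.2 - ((u.2 : ℕ) : ZMod 9))
def taQ (u : Fin 5 × Fin 7) (p : QQ) : QQ :=
  (p.1 - ((u.1 : ℕ) : ZMod 25), p.2 - ((u.2 : ℕ) : ZMod 49))

theorem cell_sgP (u : Fin 2 × Fin 3) (p : PP) : cellP (sgP u p) = cellP p :=
  Prod.ext (lo_sub_q h4 _ _) (lo_sub_q h9 _ _)
theorem lay_sgQ (u : Fin 5 × Fin 7) (p : QQ) : layQ (sgQ u p) = layQ p :=
  Prod.ext (lo_sub_q h25 _ _) (lo_sub_q h49 _ _)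

theorem exu_sgP (p p' : PP) (h : cellP p' = cellP p) : ∃! u, sgP u p = p' := by
  obtain ⟨c, hc, hcu⟩ := exu_q h4 p.1 p'.1 (congrArg Prod.fst h)
  obtain ⟨d, hd, hdu⟩ := exu_q h9 p.2 p'.2 (congrArg Prod.snd h)
  refine ⟨(c, d), Prod.ext hc hd, ?_⟩
  rintro ⟨c', d'⟩ h'
  exact Prod.ext (hcu c' (congrArg Prod.fst h')) (hdu d' (congrArg Prod.snd h'))

theorem exu_sgQ (p p' : QQ) (h : layQ p' = layQ p) : ∃! u, sgQ u p = p' := by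
  obtain ⟨c, hc, hcu⟩ := exu_q h25 p.1 p'.1 (congrArg Prod.fst h)
  obtain ⟨d, hd, hdu⟩ := exu_q h49 p.2 p'.2 (congrArg Prod.snd h)
  refine ⟨(c, d), Prod.ext hc hd, ?_⟩
  rintro ⟨c', d'⟩ h'
  exact Prod.ext (hcu c' (congrArg Prod.fst h')) (hdu d' (congrArg Prod.snd h'))

theorem D0_cls (k : Kind) (h : ZMod 9) (p : PP) (hp : p ∈ D0 k h) : cls (cellP p) = false := by
  cases k with
  | Q a n =>
    have h1 : lo h4 p.1 = aQ a (hi h9 (h - p.2)) := hp.1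
    have h2 : lo h9 p.2 = bQ a n (hi h9 (h - p.2)) (hi h4 p.1) := hp.2
    unfold cellP
    rw [h1, h2]
    unfold aQ bQ
    cases a
    · split_ifs <;> decide
    · split_ifs <;> decide
  | P => exact hp.elim
  | V0 =>
    rcases hp with rfl | rfl <;> decide +kernel
  | V1 =>
    rcases hp with rfl | rfl <;> decide +kernel

theorem D1_cls (k : Kind) (h : ZMod 4) (p : PP) (hp : p ∈ D1 k h) : cls (cellP p) = true := by
  cases k with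
  | Q a n => exact hp.elim
  | P =>
    have h1 : lo h9 p.2 = aP (hi h4 (h - p.1)) := hp.1
    have h2 : lo h4 p.1 = bP (hi h4 (h - p.1)) (hi h9 p.2) := hp.2
    unfold cellP
    rw [h1, h2]
    unfold aP bP
    split_ifs <;> decide
  | V0 =>
    rcases hp with rfl | rfl | rfl | rfl <;> decide +kernel
  | V1 =>
    rcases hp with rfl | rfl | rfl | rfl <;> decide +kernel

theorem st_fin : StFin := by
  obtain ⟨M0, a1, a2, a3⟩ := matching cellP layQ (fun (h1 : ZMod 9) l => D0 (tab l) h1) B0 eq0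
  obtain ⟨M1, b1, b2, b3⟩ := matching cellP layQ (fun (h1 : ZMod 4) l => D1 (tab l) h1) B1 eq1
  let A0 : Set (K × K) := {x | M0 x.1.2.1 x.1.2.2.2 (x.2.1, x.2.2.1) (x.2.2.2.1, x.2.2.2.2)}
  let A1 : Set (K × K) := {x | M1 x.1.1 x.1.2.2.1 (x.2.1, x.2.2.1) (x.2.2.2.1, x.2.2.2.2)}
  let X : Bool → Set K := fun τ =>
    if τ then {r | X2 (tab (layQ (r.2.2.1, r.2.2.2))) r.2.1} else {r | cls (cellP (r.1, r.2.1)) = false}
  have kf0 : ∀ (h r : K) (i : Ix), (h - sh false i, r - kap (row false i)) ∈ A0 ↔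
      M0 h.2.1 (h.2.2.2 - ((i.2.2.2 : ℕ) : ZMod 49)) (sgP (i.1, i.2.1) (r.1, r.2.1))
        (taQ (i.2.2.1, i.2.2.2) (r.2.2.1, r.2.2.2)) := by
    intro h r i
    rw [kap_false i]
    show M0 (h.2.1 - 0) _ _ _ ↔ _
    rw [sub_zero]
    rfl
  have kt0 : ∀ (h r : K) (i : Ix), (h - sh true i, r - kap (row true i)) ∈ A0 ↔
      M0 (h.2.1 - ((i.2.1 : ℕ) : ZMod 9)) h.2.2.2 (taP (i.1, i.2.1) (r.1, r.2.1))
        (sgQ (i.2.2.1, i.2.2.2) (r.2.2.1, r.2.2.2)) := by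
    intro h r i
    rw [kap_true i]
    show M0 _ (h.2.2.2 - 0) _ _ ↔ _
    rw [sub_zero]
    rfl
  have kf1 : ∀ (h r : K) (i : Ix), (h - sh false i, r - kap (row false i)) ∈ A1 ↔
      M1 h.1 (h.2.2.1 - ((i.2.2.1 : ℕ) : ZMod 25)) (sgP (i.1, i.2.1) (r.1, r.2.1))
        (taQ (i.2.2.1, i.2.2.2) (r.2.2.1, r.2.2.2)) := by
    intro h r i
    rw [kap_false i]
    show M1 (h.1 - 0) _ _ _ ↔ _
    rw [sub_zero]
    rfl
  have kt1 : ∀ (h r : K) (i : Ix), (h - sh true i, r - kap (row true i)) ∈ A1 ↔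
      M1 (h.1 - ((i.1 : ℕ) : ZMod 4)) h.2.2.1 (taP (i.1, i.2.1) (r.1, r.2.1))
        (sgQ (i.2.2.1, i.2.2.2) (r.2.2.1, r.2.2.2)) := by
    intro h r i
    rw [kap_true i]
    show M1 _ (h.2.2.1 - 0) _ _ ↔ _
    rw [sub_zero]
    rfl
  refine ⟨A0, A1, X, ?_, ?_, ?_, ?_, ?_, ?_⟩
  · intro h r
    show M0 (h.2.1 + 0) (h.2.2.2 + 0) _ _ ↔ M0 h.2.1 h.2.2.2 _ _
    rw [add_zero, add_zero]
  · intro h r
    show M1 (h.1 + 0) (h.2.2.1 + 0) _ _ ↔ M1 h.1 h.2.2.1 _ _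
    rw [add_zero, add_zero]
  · rintro (_ | _) h r hr
    · -- type false, class 0
      have hr' : cls (cellP (r.1, r.2.1)) = false := hr
      simp only [kf0]
      refine exu_false (F := fun x => M0 h.2.1 (h.2.2.2 - ((x.2.2 : ℕ) : ZMod 49))
        (sgP x.1 (r.1, r.2.1)) (taQ x.2 (r.2.2.1, r.2.2.2))) ?_
      refine asm (M := fun h2 p q => M0 h.2.1 h2 p q) cellP B0 sgP taQ
        (fun v h2 => h2 - ((v.2 : ℕ) : ZMod 49)) (fun h2 p q hm => (a1 _ _ _ _ hm).2)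
        (fun h2 q c hq => a3 _ _ _ _ hq) cell_sgP exu_sgP _ _ _ ?_
      obtain ⟨v, hv, hvu⟩ := Rf_tile h25 h49 (al0 (cellP (r.1, r.2.1))) (be0 (cellP (r.1, r.2.1)))
        h.2.2.2 (r.2.2.1, r.2.2.2)
      exact ⟨v, ⟨hr', hv⟩, fun v' hv' => hvu v' hv'.2⟩
    · -- type true, class 0
      have hr' : X2 (tab (layQ (r.2.2.1, r.2.2.2))) r.2.1 := hr
      simp only [kt0]
      refine exu_true (F := fun x => M0 (h.2.1 - ((x.2.2 : ℕ) : ZMod 9)) h.2.2.2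
        (taP x.2 (r.1, r.2.1)) (sgQ x.1 (r.2.2.1, r.2.2.2))) ?_
      refine asm (M := fun h1 q p => M0 h1 h.2.2.2 p q) layQ (fun h1 l => D0 (tab l) h1) sgQ taP
        (fun v h1 => h1 - ((v.2 : ℕ) : ZMod 9)) (fun h1 q p hm => (a1 _ _ _ _ hm).1)
        (fun h1 p l hp => a2 _ _ _ _ hp) lay_sgQ exu_sgQ _ _ _ ?_
      exact tile0 _ h.2.1 (r.1, r.2.1) hr'
  · rintro (_ | _) h r hr i
    · have hr' : ¬ cls (cellP (r.1, r.2.1)) = false := hr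
      rw [kf0]
      intro hm
      have := (a1 _ _ _ _ hm).2.1
      rw [cell_sgP] at this
      exact hr' this
    · have hr' : ¬ X2 (tab (layQ (r.2.2.1, r.2.2.2))) r.2.1 := hr
      rw [kt0]
      intro hm
      have := (a1 _ _ _ _ hm).1
      rw [lay_sgQ] at this
      exact none0 _ h.2.1 (r.1, r.2.1) hr' (i.1, i.2.1) this
  · rintro (_ | _) h r hr
    · have hr' : ¬ cls (cellP (r.1, r.2.1)) = false := hr
      have hr2 : cls (cellP (r.1, r.2.1)) = true := by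
        cases hcc : cls (cellP (r.1, r.2.1))
        · exact (hr' hcc).elim
        · rfl
      simp only [kf1]
      refine exu_false (F := fun x => M1 h.1 (h.2.2.1 - ((x.2.1 : ℕ) : ZMod 25))
        (sgP x.1 (r.1, r.2.1)) (taQ x.2 (r.2.2.1, r.2.2.2))) ?_
      refine asm (M := fun h2 p q => M1 h.1 h2 p q) cellP B1 sgP taQ
        (fun v h2 => h2 - ((v.1 : ℕ) : ZMod 25)) (fun h2 p q hm => (b1 _ _ _ _ hm).2)
        (fun h2 q c hq => b3 _ _ _ _ hq) cell_sgP exu_sgP _ _ _ ?_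
      obtain ⟨v, hv, hvu⟩ := Rf_tile h49 h25 al1 (be1 (cellP (r.1, r.2.1)))
        h.2.2.1 (r.2.2.2, r.2.2.1)
      refine ⟨v.swap, ⟨hr2, hv⟩, fun v' hv' => ?_⟩
      rw [← hvu v'.swap hv'.2, Prod.swap_swap]
    · have hr' : ¬ X2 (tab (layQ (r.2.2.1, r.2.2.2))) r.2.1 := hr
      simp only [kt1]
      refine exu_true (F := fun x => M1 (h.1 - ((x.2.1 : ℕ) : ZMod 4)) h.2.2.1
        (taP x.2 (r.1, r.2.1)) (sgQ x.1 (r.2.2.1, r.2.2.2))) ?_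
      refine asm (M := fun h1 q p => M1 h1 h.2.2.1 p q) layQ (fun h1 l => D1 (tab l) h1) sgQ taP
        (fun v h1 => h1 - ((v.1 : ℕ) : ZMod 4)) (fun h1 q p hm => (b1 _ _ _ _ hm).1)
        (fun h1 p l hp => b2 _ _ _ _ hp) lay_sgQ exu_sgQ _ _ _ ?_
      exact tile1 _ h.1 (r.1, r.2.1) hr'
  · rintro (_ | _) h r hr i
    · have hr' : cls (cellP (r.1, r.2.1)) = false := hr
      rw [kf1]
      intro hm
      have := (b1 _ _ _ _ hm).2.1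
      rw [cell_sgP, hr'] at this
      exact absurd this (by decide)
    · have hr' : X2 (tab (layQ (r.2.2.1, r.2.2.2))) r.2.1 := hr
      rw [kt1]
      intro hm
      have := (b1 _ _ _ _ hm).1
      rw [lay_sgQ] at this
      exact none1 _ h.1 (r.1, r.2.1) hr' (i.1, i.2.1) this

end Vale.Agent.P043.T2.H171
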